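import Vale.Agent.P233.RA.Defs
import Vale.Agent.P233.Gig.IfD
import Mathlib.MeasureTheory.Measure.Doubling

/-! P233, RCDA, parts G and L (metric half): frozen interface, version 1.2 (sub-captain helper671).
Blueprint: notes 9843, 9844 (helper883). -/

set_option linter.all false

open MeasureTheory Filter Topology Set Metric
open scoped ENNReal NNReal MeasureTheory

universe u

namespace Vale.Agent.P233.RG

open Vale.Agent.P233.RA

/-- `ℝⁿ` with the Euclidean norm -/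
abbrev E (n : ℕ) : Type := EuclideanSpace ℝ (Fin n)

/-- condition (A) -/
structure Alex (M : Type u) [MetricSpace M] (n : ℕ) (κ : ℝ) : Prop where
  two_le : 2 ≤ n
  alex : T.IsAlexandrov M κ
  dim : dimH (univ : Set M) = n

/-! ### G1, G2: radial contractions (`√κ = 0` if `κ ≤ 0`) -/

/-- G1: comparison for two sides of a hinge at `p`: `z ∈ [p,x]`, `w ∈ [p,y]`. -/
def TwoSided (M : Type u) [MetricSpace M] (κ : ℝ) : Prop :=
  ∀ p x y z w : M, √κ * (dist p x + dist p y + dist x y) < 2 * Real.pi → √κ * dist p x < Real.pi →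
    √κ * dist p y < Real.pi → 0 < dist p x → 0 < dist p y →
    dist p z + dist z x = dist p x → dist p w + dist w y = dist p y →
    md κ (dist p z - dist p w) + sn κ (dist p z) * sn κ (dist p w)
        / (sn κ (dist p x) * sn κ (dist p y)) * (md κ (dist x y) - md κ (dist p x - dist p y))
      ≤ md κ (dist z w)

/-- G2, linear ratio: the inverse of the radial contraction by the factor `t` is locally Lipschitz
with constant `C / t` (in the form of Hausdorff measures; `G` is any set that contains at least one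
point of every segment). `C` depends only on `κ` and `R` (`C = 1` if `0 ≤ κ`). -/
def Rad (M : Type u) [MetricSpace M] [MeasurableSpace M] [BorelSpace M] (κ : ℝ) : Prop :=
  ∀ R, 0 < R → ∃ C : ℝ, 1 ≤ C ∧ ∀ (p : M) (t : ℝ), t ∈ Ioc (0 : ℝ) 1 →
    ∀ a : ℝ, 0 ≤ a → ∀ B G : Set M, B ⊆ ball p R → (∀ x ∈ B, √κ * dist p x < Real.pi) →
      (∀ x ∈ B, ∃ z ∈ G, dist p z = t * dist p x ∧ dist z x = (1 - t) * dist p x) →
      μH[a] B ≤ ENNReal.ofReal ((C / t) ^ a) * μH[a] G

/-- the inverse radial map is locally Lipschitz, and Lipschitz on small balls -/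
def RadLip (M : Type u) [MetricSpace M] (κ : ℝ) : Prop :=
  ∀ R, 0 < R → √κ * R < Real.pi / 2 → ∃ C : ℝ, 1 ≤ C ∧ ∀ (p : M) (t : ℝ), t ∈ Ioc (0 : ℝ) 1 →
    ∀ x ∈ ball p R, ∀ y ∈ ball p R, ∀ z w : M, dist p z = t * dist p x →
      dist z x = (1 - t) * dist p x → dist p w = t * dist p y → dist w y = (1 - t) * dist p y →
      dist x y ≤ C / t * dist z w

/-- `ρ_s(r)`: the solution of `ρ' = -sn_κ(ρ)`, `ρ_0 = r` (for `√κ r < π`) -/
noncomputable def rho (κ s r : ℝ) : ℝ :=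
  if κ = 0 then Real.exp (-s) * r
  else if 0 < κ then 2 / √κ * Real.arctan (Real.exp (-s) * Real.tan (√κ * r / 2))
  else (Real.log (1 + Real.exp (-s) * Real.tanh (√(-κ) * r / 2))
    - Real.log (1 - Real.exp (-s) * Real.tanh (√(-κ) * r / 2))) / √(-κ)

/-- the conformal factor `λ_s(r) = ∂ρ_s(r)/∂r = sn_κ(ρ_s(r)) / sn_κ(r)` -/
noncomputable def lam (κ s r : ℝ) : ℝ := sn κ (rho κ s r) / sn κ r

/-- G2 (*), conformal radial contraction, sharp: `λ_s(d_p)ⁿ ℋⁿ ≤ (F_s)_# ℋⁿ`. `G` is any set that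
contains, for every `x ∈ B`, a point of a segment `[p,x]` at distance `ρ_s(|px|)` from `p`. -/
def Star (M : Type u) [MetricSpace M] [MeasurableSpace M] [BorelSpace M] (κ : ℝ) (n : ℕ) : Prop :=
  ∀ (p : M) (s : ℝ), 0 ≤ s → ∀ B G : Set M, MeasurableSet B →
    (∀ x ∈ B, √κ * dist p x < Real.pi) →
    (∀ x ∈ B, ∃ z ∈ G, dist p z = rho κ s (dist p x) ∧
      dist z x = dist p x - rho κ s (dist p x)) →
    ∫⁻ x in B, ENNReal.ofReal (lam κ s (dist p x) ^ n) ∂μH[n] ≤ μH[n] G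

/-! ### G3 - G5: dimension -/

/-- G3, G4, G5: a bi-Lipschitz chart whose image contains a ball (helper933). -/
def Chart (M : Type u) [MetricSpace M] (k : ℕ) : Prop :=
  ∃ (p : M) (r : ℝ) (f : M → Fin k → ℝ), 0 < r ∧ LipschitzWith 1 f ∧
    (∃ L : ℝ, 0 < L ∧ ∀ x ∈ ball p r, ∀ y ∈ ball p r, dist x y ≤ L * dist (f x) (f y)) ∧
    ∀ s > 0, ∃ c > 0, ball (f p) c ⊆ f '' ball p s

/-- Output of G3 - G5 and G2. -/
structure Dim (M : Type u) [MetricSpace M] [MeasurableSpace M] [BorelSpace M] (n : ℕ) : Prop where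
  chart : Chart M n
  pos : ∀ (x : M) (s : ℝ), 0 < s → 0 < μH[n] (ball x s)
  fin : ∀ x : M, ∃ s > 0, μH[n] (ball x s) < ∞
  dim : ∀ (x : M) (s : ℝ), 0 < s → dimH (ball x s) = n

/-- G-pos (Myers) -/
def Myers (M : Type u) [MetricSpace M] (κ : ℝ) : Prop :=
  0 < κ → ∀ x y : M, dist x y ≤ Real.pi / √κ

/-! ### G6: Bishop–Gromov, properness -/

structure GeoN {M : Type u} [MetricSpace M] [MeasurableSpace M] (m : Measure M) (n : ℕ) :
    Prop where
  full : m.IsOpenPosMeasure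
  fin : ∀ (x : M) (r : ℝ), m (ball x r) < ∞
  bg : PD.BG m n
  /-- proper, geodesic, locally Ahlfors regular, `IsUnifLocDoublingMeasure` -/
  geo : PD.Geo m n
  growth : ∃ (x₀ : M) (c : ℝ), ∀ r > 0, m (ball x₀ r) ≤ ENNReal.ofReal (c * Real.exp (c * r))

/-! ### G7 - G11: rectifiability, density, quadratic energy -/

/-- G7: `M` is a countable union of Lipschitz images of closed subsets of `ℝⁿ`. -/
def LRect (M : Type u) [MetricSpace M] (n : ℕ) : Prop :=
  ∃ (S : ℕ → Set (E n)) (h : ℕ → E n → M), (∀ j, IsClosed (S j)) ∧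
    (∀ j, ∃ L : ℝ≥0, LipschitzOnWith L (h j) (S j)) ∧ ⋃ j, h j '' S j = univ

/-- `(1+τ)`-bi-Lipschitz pieces (helper825) -/
def SRect {M : Type u} [MetricSpace M] [MeasurableSpace M] (m : Measure M) (n : ℕ) (τ : ℝ) :
    Prop :=
  ∃ (S : ℕ → Set (E n)) (g : ℕ → E n → M), (∀ j, ∀ v ∈ S j, ∀ w ∈ S j,
    dist (g j v) (g j w) ≤ (1 + τ) * dist v w ∧ dist v w ≤ (1 + τ) * dist (g j v) (g j w)) ∧
    m (⋃ j, g j '' S j)ᶜ = 0

/-- (N3) -/
def Dens {M : Type u} [MetricSpace M] [MeasurableSpace M] (m : Measure M) (n : ℕ) (θ : ℝ) : Prop :=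
  ∀ᵐ x ∂m, Tendsto (fun r : ℝ => (m (ball x r)).toReal / r ^ n) (𝓝[>] 0) (𝓝 θ)

/-- the Cheeger energy is quadratic -/
def Quadr {M : Type u} [MetricSpace M] [MeasurableSpace M] (m : Measure M) : Prop :=
  ∀ f ∈ (sob m).W, ∀ g ∈ (sob m).W,
    ∫ x, (slope (f + g) ^ 2) x ∂m + ∫ x, (slope (f - g) ^ 2) x ∂m
      = 2 * ∫ x, (slope f ^ 2) x ∂m + 2 * ∫ x, (slope g ^ 2) x ∂m

/-! ### L: calculus without Bochner -/

/-- Hypotheses of part D without `RCD` (helper719): the blocks D0 - D4 only use these. -/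
structure SpA {M : Type u} [MetricSpace M] [MeasurableSpace M] [BorelSpace M] (m : Measure M)
    (n : ℕ) : Prop where
  n_pos : 0 < n
  full : m.IsOpenPosMeasure
  hfin : ∀ (x : M) (r : ℝ), m (ball x r) < ∞
  haus : m = μH[(n : ℝ)]
  quad : Quadr m
  contr : PD.HasContr m n
  len : PD.IsLen M

def S2L {M : Type u} [MetricSpace M] [MeasurableSpace M] (m : Measure M) : Prop :=
  ∀ f ∈ (sob m).W, slope f ≤ 1 → ∃ u : M → ℝ, LipschitzWith 1 u ∧ f =ᵐ[m] u

def SlopeEq {M : Type u} [MetricSpace M] [MeasurableSpace M] (m : Measure M) : Prop :=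
  ∀ (u : M → ℝ) (L : ℝ≥0), LipschitzWith L u → BSup u →
    ∀ᵐ x ∂m, slope (cl m u) x = (lipAt u x).toReal

/-- (LC), the field `lc` of `NSp` -/
def LC {M : Type u} [MetricSpace M] [MeasurableSpace M] (m : Measure M) (n : ℕ) (K : ℝ) : Prop :=
  ∀ (p : M) (δ : ℝ), 0 < δ → ∀ φ ∈ (sob m).W, 0 ≤ φ → (∀ᵐ x ∂m, δ ≤ gg p x → φ x = 0) →
    -I ((sob m).Γ (cl m (ww δ p)) φ) ≤ ∫ x, (n - 2 * K / 3 * gg p x) * φ x ∂m

/-- L1 and D0, D2, D3, L3 -/
structure LOut {M : Type u} [MetricSpace M] [MeasurableSpace M] (m : Measure M) (n : ℕ) :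
    Prop where
  s2l : S2L m
  slope_eq : SlopeEq m
  unit : PD.UnitGrad m
  lip : PD.LipSlope m
  fv : PD.FirstV m

/-! ### Blocks -/

/-- G1 -/
def Blk_G1 : Prop :=
  ∀ (M : Type u) [MetricSpace M] (κ : ℝ), T.IsAlexandrov M κ → TwoSided M κ

/-- for `0 < κ` the space is also an Alexandrov space of curvature `≥ 0` -/
def Alex0 (M : Type u) [MetricSpace M] (κ : ℝ) : Prop := 0 < κ → T.IsAlexandrov M 0

/-- G2 (v1.2: without `Star`, see RA/IfL2.lean) -/
def Blk_G2 : Prop :=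
  ∀ (M : Type u) [MetricSpace M] [CompleteSpace M] [SecondCountableTopology M]
    [MeasurableSpace M] [BorelSpace M] (n : ℕ) (κ : ℝ), Alex M n κ →
    Rad M κ ∧ RadLip M κ ∧ Alex0 M κ

/-- G3, G4, G5 -/
def Blk_Chart : Prop :=
  ∀ (M : Type u) [MetricSpace M] [CompleteSpace M] (κ : ℝ), T.IsAlexandrov M κ → Nonempty M →
    dimH (univ : Set M) < ⊤ → ∃ k, Chart M k

/-- G5, homogeneity of the dimension -/
def Blk_Dim : Prop :=
  ∀ (M : Type u) [MetricSpace M] [CompleteSpace M] [SecondCountableTopology M]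
    [MeasurableSpace M] [BorelSpace M] (n : ℕ) (κ : ℝ), Alex M n κ → Rad M κ →
    (∃ k, Chart M k) → Dim M n

/-- G-pos -/
def Blk_Myers : Prop :=
  ∀ (M : Type u) [MetricSpace M] [CompleteSpace M] [SecondCountableTopology M]
    [MeasurableSpace M] [BorelSpace M] (n : ℕ) (κ : ℝ), Alex M n κ → Dim M n → Myers M κ

/-- G6 -/
def Blk_G6 : Prop :=
  ∀ (M : Type u) [MetricSpace M] [CompleteSpace M] [SecondCountableTopology M]
    [MeasurableSpace M] [BorelSpace M] (n : ℕ) (κ : ℝ), Alex M n κ → Rad M κ → Dim M n →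
    GeoN (μH[n] : Measure M) n

/-- G7 -/
def Blk_G7 : Prop :=
  ∀ (M : Type u) [MetricSpace M] [CompleteSpace M] [SecondCountableTopology M]
    [MeasurableSpace M] [BorelSpace M] (n : ℕ) (κ : ℝ), Alex M n κ → RadLip M κ → Chart M n →
    LRect M n

/-- G8, G9 -/
def Blk_G9 : Prop :=
  ∀ (M : Type u) [MetricSpace M] [CompleteSpace M] [SecondCountableTopology M]
    [MeasurableSpace M] [BorelSpace M] (n : ℕ) (κ : ℝ), Alex M n κ →
    GeoN (μH[n] : Measure M) n → LRect M n → ∀ τ > 0, SRect (μH[n] : Measure M) n τ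

/-- G10 -/
def Blk_G10 : Prop :=
  ∀ (M : Type u) [MetricSpace M] [CompleteSpace M] [SecondCountableTopology M]
    [MeasurableSpace M] [BorelSpace M] (n : ℕ), 0 < n →
    GeoN (μH[n] : Measure M) n → (∀ τ > 0, SRect (μH[n] : Measure M) n τ) →
    ∃ θ > 0, Dens (μH[n] : Measure M) n θ

/-- G11 -/
def Blk_G11 : Prop :=
  ∀ (M : Type u) [MetricSpace M] [CompleteSpace M] [SecondCountableTopology M]
    [MeasurableSpace M] [BorelSpace M] (n : ℕ), 0 < n →
    GeoN (μH[n] : Measure M) n → (∀ τ > 0, SRect (μH[n] : Measure M) n τ) →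
    Quadr (μH[n] : Measure M)

/-- contraction maps in the form of part D -/
def Blk_Contr : Prop :=
  ∀ (M : Type u) [MetricSpace M] [CompleteSpace M] [SecondCountableTopology M]
    [MeasurableSpace M] [BorelSpace M] (n : ℕ) (κ : ℝ), Alex M n κ → Rad M κ → Myers M κ →
    GeoN (μH[n] : Measure M) n → PD.HasContr (μH[n] : Measure M) n

/-- L1, L3, D0, D2, D3, D4 without `RCD` -/
def Blk_L1 : Prop :=
  ∀ (M : Type u) [MetricSpace M] [CompleteSpace M] [SecondCountableTopology M]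
    [MeasurableSpace M] [BorelSpace M] (m : Measure M) (n : ℕ), SpA m n → PD.Geo m n → LOut m n

/-- L2: Laplacian comparison -/
def Blk_L2 : Prop :=
  ∀ (M : Type u) [MetricSpace M] [CompleteSpace M] [SecondCountableTopology M]
    [MeasurableSpace M] [BorelSpace M] (n : ℕ) (κ : ℝ), Alex M n κ → Rad M κ → RadLip M κ →
    Alex0 M κ → Myers M κ →
    GeoN (μH[n] : Measure M) n → Quadr (μH[n] : Measure M) → LOut (μH[n] : Measure M) n →
    LC (μH[n] : Measure M) n ((n - 1) * κ)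

/-! ### Assembly -/

theorem nsp_of (M : Type u) [MetricSpace M] [CompleteSpace M] [SecondCountableTopology M]
    [MeasurableSpace M] [BorelSpace M] (n : ℕ) (κ : ℝ) (hA : Alex M n κ)
    (hG : GeoN (μH[n] : Measure M) n) (hQ : Quadr (μH[n] : Measure M))
    (hD : ∃ θ > 0, Dens (μH[n] : Measure M) n θ) (hL : LOut (μH[n] : Measure M) n)
    (hLC : LC (μH[n] : Measure M) n ((n - 1) * κ)) :
    ∃ θ : ℝ, NSp (μH[n] : Measure M) n ((n - 1) * κ) θ := by
  obtain ⟨θ, hθ, hd⟩ := hD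
  have h0 : 0 < n := lt_of_lt_of_le two_pos hA.two_le
  refine ⟨θ, ?_⟩
  refine
    { n_pos := h0
      proper := hG.geo.proper
      geo := hA.alex.geodesic
      full := hG.full
      fin := hG.fin
      growth := hG.growth
      upper := fun x₀ R => ?_
      doubling := fun x₀ R => ?_
      θ_pos := hθ
      dens := hd
      quadratic := hQ
      s2l := hL.s2l
      slope_eq := hL.slope_eq
      lc := hLC }
  · obtain ⟨c, -, C, h⟩ := hG.geo.vol x₀ (max R 1)
    exact ⟨C, fun x hx r h1 h2 => (h x (ball_subset_ball (le_max_left _ _) hx) r h1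
      (h2.trans (le_max_right _ _))).2⟩
  · obtain ⟨c, hc, C, h⟩ := hG.geo.vol x₀ (max R 2)
    refine ⟨Real.toNNReal (|C| * 2 ^ n / c), fun x hx r h1 h2 => ?_⟩
    have h3 := (h x (ball_subset_ball (le_max_left _ _) hx) (2 * r) (by linarith)
      ((by linarith : 2 * r ≤ 2).trans (le_max_right _ _))).2
    have h4 := (h x (ball_subset_ball (le_max_left _ _) hx) r h1
      ((by linarith : r ≤ 2).trans (le_max_right _ _))).1
    refine h3.trans (le_trans ?_ (mul_le_mul_right h4 _))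
    change _ ≤ ENNReal.ofReal (|C| * 2 ^ n / c) * ENNReal.ofReal (c * r ^ n)
    rw [← ENNReal.ofReal_mul (by positivity)]
    refine ENNReal.ofReal_le_ofReal ?_
    have h5 : |C| * 2 ^ n / c * (c * r ^ n) = |C| * (2 * r) ^ n := by
      rw [mul_pow]
      field_simp
    rw [h5]
    exact mul_le_mul_of_nonneg_right (le_abs_self _) (by positivity)

theorem partGL_of (h2 : Blk_G2.{u}) (hc : Blk_Chart.{u}) (hd : Blk_Dim.{u}) (hm : Blk_Myers.{u})
    (h6 : Blk_G6.{u}) (h7 : Blk_G7.{u}) (h9 : Blk_G9.{u}) (h10 : Blk_G10.{u}) (h11 : Blk_G11.{u})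
    (hC : Blk_Contr.{u}) (h1 : Blk_L1.{u}) (hL2 : Blk_L2.{u}) : PartGL.{u} := by
  intro M _ _ _ _ _ n κ hn hA hdim
  have hAx : Alex M n κ := ⟨hn, hA, hdim⟩
  have h0 : 0 < n := lt_of_lt_of_le two_pos hn
  have hne : Nonempty M := by
    by_contra h
    rw [not_nonempty_iff] at h
    have h3 : (univ : Set M) = ∅ := univ_eq_empty_iff.2 h
    rw [h3, dimH_empty] at hdim
    have h4 : ((n : ℝ≥0∞)) = 0 := hdim.symm
    rw [Nat.cast_eq_zero] at h4
    omega
  obtain ⟨hR, hRL, hA0⟩ := h2 M n κ hAx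
  have hch := hc M κ hA hne (by rw [hdim]; exact ENNReal.natCast_lt_top n)
  have hD := hd M n κ hAx hR hch
  have hM := hm M n κ hAx hD
  have hG := h6 M n κ hAx hR hD
  have hLR := h7 M n κ hAx hRL hD.chart
  have hSR := h9 M n κ hAx hG hLR
  have hDe := h10 M n h0 hG hSR
  have hQ := h11 M n h0 hG hSR
  have hCo := hC M n κ hAx hR hM hG
  have hlen : PD.IsLen M := by
    intro x y s t hs ht hst e he
    obtain ⟨w, h1, h2⟩ := hA.geodesic x y s t hs ht hst
    exact ⟨w, by linarith, by linarith⟩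
  have hSp : SpA (μH[n] : Measure M) n := ⟨h0, hG.full, hG.fin, rfl, hQ, hCo, hlen⟩
  have hL := h1 M _ n hSp hG.geo
  exact nsp_of M n κ hAx hG hQ hDe hL (hL2 M n κ hAx hR hRL hA0 hM hG hQ hL)

end Vale.Agent.P233.RG
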