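import Vale.Agent.P233.RA.IfHK

/-! P233, project RCDA, interface of the parts T (transport with bounded cost) and S (entropy
inequality, contraction of the cost). Sub-captain helper254. -/

set_option linter.all false

open MeasureTheory Filter Topology Set
open scoped ENNReal NNReal MeasureTheory

universe u

namespace Vale.Agent.P233.RA

/-! ### transport -/

section metric

variable {M : Type u} [MetricSpace M]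

theorem cc_comm (δ : ℝ) (x y : M) : cc δ x y = cc δ y x := by
  unfold cc
  rw [dist_comm]

/-- admissible pairs of potentials for the cost `cc δ` -/
structure Adm (δ : ℝ) (φ ψ : M → ℝ) : Prop where
  bl1 : BLip φ
  bl2 : BLip ψ
  le : ∀ x y, φ x + ψ y ≤ cc δ x y

theorem Adm.symm {δ : ℝ} {φ ψ : M → ℝ} (h : Adm δ φ ψ) : Adm δ ψ φ :=
  ⟨h.bl2, h.bl1, fun x y => by
    rw [cc_comm, add_comm]
    exact h.le y x⟩

/-- the set where the cost is not cut off -/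
def cutA (M : Type u) [MetricSpace M] (δ : ℝ) : Set (M × M) := {z | dist z.1 z.2 ^ 2 / 2 < δ}

end metric

section transport

variable {M : Type u} [MetricSpace M] [MeasurableSpace M]

/-- optimal plan with its potentials -/
structure Opt (δ : ℝ) (μ ν : Measure M) (γ : Measure (M × M)) (φ ψ : M → ℝ) : Prop where
  adm : Adm δ φ ψ
  bdφ : ∀ x, |φ x| ≤ δ
  bdψ : ∀ x, |ψ x| ≤ δ
  fst : γ.map Prod.fst = μ
  snd : γ.map Prod.snd = ν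
  eq : ∀ᵐ z ∂γ, φ z.1 + ψ z.2 = cc δ z.1 z.2

theorem Opt.swap {δ : ℝ} {μ ν : Measure M} {γ : Measure (M × M)} {φ ψ : M → ℝ}
    (h : Opt δ μ ν γ φ ψ) : Opt δ ν μ (γ.map Prod.swap) ψ φ where
  adm := h.adm.symm
  bdφ := h.bdψ
  bdψ := h.bdφ
  fst := by
    rw [Measure.map_map measurable_fst measurable_swap]
    exact h.snd
  snd := by
    rw [Measure.map_map measurable_snd measurable_swap]
    exact h.fst
  eq := by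
    have e : ∀ᵐ z ∂γ, ψ (Prod.swap z).1 + φ (Prod.swap z).2
        = cc δ (Prod.swap z).1 (Prod.swap z).2 := by
      filter_upwards [h.eq] with z hz
      rw [cc_comm, add_comm]
      exact hz
    exact (MeasurableEquiv.prodComm (α := M) (β := M)).measurableEmbedding.ae_map_iff.2 e

/-- **T**: Kantorovich duality for the bounded cost. -/
def Blk_T : Prop :=
  ∀ {M : Type u} [MetricSpace M] [ProperSpace M] [MeasurableSpace M] [BorelSpace M] (δ : ℝ),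
    0 < δ → ∀ (μ ν : Measure M) [IsProbabilityMeasure μ] [IsProbabilityMeasure ν],
    ∃ (γ : Measure (M × M)) (φ ψ : M → ℝ), Opt δ μ ν γ φ ψ

/-- the measure with density `ρ` -/
noncomputable def dm {m : Measure M} (ρ : M →ₘ[m] ℝ) : Measure M :=
  m.withDensity fun x => ENNReal.ofReal (ρ x)

end transport

/-! ### the input of part S -/

/-- The semigroup of `½Δ` on `L²`, first properties. -/
structure SG0 {M : Type u} [MeasurableSpace M] {m : Measure M}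
    (P : ℝ → (M →ₘ[m] ℝ) → (M →ₘ[m] ℝ)) : Prop where
  mem : ∀ t, 0 ≤ t → ∀ f : M →ₘ[m] ℝ, MemLp f 2 m → MemLp (P t f) 2 m
  zero : ∀ f : M →ₘ[m] ℝ, MemLp f 2 m → P 0 f = f
  semi : ∀ s t, 0 ≤ s → 0 ≤ t → ∀ f : M →ₘ[m] ℝ, MemLp f 2 m → P (s + t) f = P s (P t f)
  add : ∀ t, 0 ≤ t → ∀ f g : M →ₘ[m] ℝ, MemLp f 2 m → MemLp g 2 m → P t (f + g) = P t f + P t g
  smul : ∀ t, 0 ≤ t → ∀ (c : ℝ), ∀ f : M →ₘ[m] ℝ, MemLp f 2 m → P t (c • f) = c • P t f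
  symm : ∀ t, 0 ≤ t → ∀ f g : M →ₘ[m] ℝ, MemLp f 2 m → MemLp g 2 m → I (P t f * g) = I (f * P t g)
  contr : ∀ t, 0 ≤ t → ∀ f : M →ₘ[m] ℝ, MemLp f 2 m → I (P t f ^ 2) ≤ I (f ^ 2)
  nonneg : ∀ t, 0 ≤ t → ∀ f : M →ₘ[m] ℝ, MemLp f 2 m → 0 ≤ f → 0 ≤ P t f
  le : ∀ t, 0 ≤ t → ∀ f : M →ₘ[m] ℝ, MemLp f 2 m → ∀ c : ℝ, 0 ≤ c → (∀ᵐ x ∂m, f x ≤ c) →
    ∀ᵐ x ∂m, P t f x ≤ c
  L1 : ∀ t, 0 ≤ t → ∀ f : M →ₘ[m] ℝ, MemLp f 2 m → MemLp f 1 m → MemLp (P t f) 1 m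
  mass : ∀ t, 0 ≤ t → ∀ f : M →ₘ[m] ℝ, MemLp f 2 m → MemLp f 1 m → I (P t f) = I f
  cont : ∀ f : M →ₘ[m] ℝ, MemLp f 2 m → ∀ s, 0 ≤ s →
    Tendsto (fun t => I ((P t f - P s f) ^ 2)) (𝓝[Ici 0] s) (𝓝 0)

section inS

variable {M : Type u} [MetricSpace M] [MeasurableSpace M]

/-- `θ_τ(x) = ∫_{B_η(x)} K̂_τ(x,y) dm(y)` -/
noncomputable def tht (m : Measure M) (n : ℕ) (K θ η τ : ℝ) (x : M) : ℝ :=
  ∫ y in Metric.ball x η, KH n K θ τ x y ∂m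

/-- `∫_{B_η(x)} a(τ) (d²/2) K̂_τ(x,y) dm(y)` -/
noncomputable def mom (m : Measure M) (n : ℕ) (K θ η τ : ℝ) (x : M) : ℝ :=
  ∫ y in Metric.ball x η, aK K τ * gg y x * KH n K θ τ x y ∂m

/-- Everything that part S uses. -/
structure InS (m : Measure M) (n : ℕ) (K θ δ : ℝ) : Prop where
  hN : NSp m n K θ
  ok : Okd M K δ
  sg : SG0 (Q m)
  flow : ∀ ρ ρ' : M →ₘ[m] ℝ, CD m ρ ρ' → ∀ t : ℝ, 0 ≤ t → CD m (Q m t ρ) (Q m t ρ')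
  deriv : ∀ ρ ρ' : M →ₘ[m] ℝ, CD m ρ ρ' → ∀ φ : M → ℝ, Measurable φ → (∃ B : ℝ, ∀ x, |φ x| ≤ B) →
    ∀ t : ℝ, 0 ≤ t → HasDerivWithinAt (fun s => ∫ x, φ x * Q m s ρ x ∂m)
      (2⁻¹ * ∫ x, φ x * Q m t ρ' x ∂m) (Ici 0) t
  lip : ∀ ρ ρ' : M →ₘ[m] ℝ, CD m ρ ρ' → ∀ s t : ℝ, 0 ≤ s → 0 ≤ t →
    ∫ x, |(Q m t ρ - Q m s ρ) x| ∂m ≤ |t - s| / 2 * ∫ x, |ρ' x| ∂m
  /-- `Q_t c_y ≤ c_y + (t/2) (n - (2K/3) c_y) + C t^{3/2}`, literally H3b -/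
  drift : ∃ C : ℝ, 0 ≤ C ∧ ∀ t : ℝ, 0 ≤ t → t ≤ 1 → ∀ y : M, ∀ᵐ x ∂m,
    Q m t (cl m (ww δ y)) x ≤ ww δ y x + t / 2 * (n - 2 * K / 3 * cc δ x y) + C * (t * √t)
  /-- Cheeger–Yau, literally H4 -/
  cy : ∀ s : ℝ, 0 < s → s ≤ 1 → ∀ f h : M →ₘ[m] ℝ,
    0 ≤ f → 0 ≤ h → MemLp f 2 m → MemLp h 2 m →
      ∫⁻ x, ∫⁻ y, ENNReal.ofReal (f x * KH n K θ s x y * h y) ∂m ∂m ≤
        ENNReal.ofReal (I (f * Q m s h))
  /-- Cheeger–Yau and Davies, literally S1 -/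
  dav : ∀ φ ψ : M → ℝ, BLip φ → BLip ψ →
    (∀ x y, φ x + ψ y ≤ dist x y ^ 2 / 2) → ∀ T : ℝ, 0 < T → T ≤ 1 → ∀ f h : M →ₘ[m] ℝ,
    0 ≤ f → 0 ≤ h → MemLp f 2 m → MemLp h 2 m → I (f ^ 2) ≤ 1 → I (h ^ 2) ≤ 1 →
      ∫⁻ x, ∫⁻ y, ENNReal.ofReal
        (Real.exp (φ x / T) * f x * KH n K θ T x y * (Real.exp (ψ y / T) * h y)) ∂m ∂m ≤ 1
  /-- small time asymptotics, from the density of `m` -/
  asy : ∀ᵐ x ∂m, ∀ η : ℝ, 0 < η → Tendsto (fun τ => tht m n K θ η τ x) (𝓝[>] 0) (𝓝 1) ∧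
    Tendsto (fun τ => mom m n K θ η τ x) (𝓝[>] 0) (𝓝 ((n : ℝ) / 2))

/-- the sequence of times along which everything is done -/
noncomputable def tau (j : ℕ) : ℝ := 1 / (j + 1)

/-- sets on which the small time asymptotics is uniform -/
structure Good (m : Measure M) (n : ℕ) (K θ : ℝ) (E : Set M) : Prop where
  meas : MeasurableSet E
  bdd : Bornology.IsBounded E
  unif : ∀ η : ℝ, 0 < η → ∀ ε : ℝ, 0 < ε → ∀ᶠ j in atTop, ∀ x ∈ E,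
    |tht m n K θ η (tau j) x - 1| ≤ ε ∧ |mom m n K θ η (tau j) x - (n : ℝ) / 2| ≤ ε

/-- `n - ∫ φ Δρ dm - (2K/3) ∫ c dγ` -/
noncomputable def aS {m : Measure M} (n : ℕ) (K δ : ℝ) (γ : Measure (M × M)) (φ : M → ℝ)
    (ρ' : M →ₘ[m] ℝ) : ℝ :=
  n - ∫ x, φ x * ρ' x ∂m - 2 * K / 3 * ∫ z, cc δ z.1 z.2 ∂γ

/-- `OutC` for one `δ` -/
def OutCd (m : Measure M) (n : ℕ) (K δ : ℝ) : Prop :=
  ∀ ρ ρ' σ σ' : M →ₘ[m] ℝ, CD m ρ ρ' → CD m σ σ' → ∀ φ ψ : M → ℝ,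
    BLip φ → BLip ψ → (∀ x y, φ x + ψ y ≤ cc δ x y) → ∀ p q t : ℝ, 0 ≤ p → 0 ≤ q → 0 ≤ t →
    ∫ x, φ x * Q m (p * t) ρ x ∂m + ∫ y, ψ y * Q m (q * t) σ y ∂m ≤
      Real.exp (Cst n K δ p q * t) * ∫ x, ∫ y, cc δ x y * (ρ x * σ y) ∂m ∂m
        + n / 2 * (√p - √q) ^ 2 * t * Real.exp (max (Cst n K δ p q) 0 * t)

end inS

/-- **In** (from H1, H2, H3b, H4, S1 and `NSp.dens`) -/
def Blk_InS : Prop :=
  ∀ {M : Type u} [MetricSpace M] [ProperSpace M] [MeasurableSpace M] [BorelSpace M]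
    (m : Measure M) (n : ℕ) (K θ δ : ℝ), NSp m n K θ → Okd M K δ → InS m n K θ δ

/-- **S3**: Egorov. -/
def Blk_S3 : Prop :=
  ∀ {M : Type u} [MetricSpace M] [ProperSpace M] [MeasurableSpace M] [BorelSpace M]
    (m : Measure M) (n : ℕ) (K θ δ : ℝ), InS m n K θ δ →
    ∀ (μ : Measure M) [IsFiniteMeasure μ], μ ≪ m → ∀ ε : ℝ≥0∞, 0 < ε →
    ∃ E, Good m n K θ E ∧ μ Eᶜ ≤ ε

/-- **S4**: the drift. (With `B = ∅` it gives `0 ≤ aS`; the mirror image is `Opt.swap`.) -/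
def Blk_S4 : Prop :=
  ∀ {M : Type u} [MetricSpace M] [ProperSpace M] [MeasurableSpace M] [BorelSpace M]
    (m : Measure M) (n : ℕ) (K θ δ : ℝ), InS m n K θ δ →
    ∀ (ρ ρ' σ σ' : M →ₘ[m] ℝ), CD m ρ ρ' → CD m σ σ' →
    ∀ (γ : Measure (M × M)) (φ ψ : M → ℝ), Opt δ (dm ρ) (dm σ) γ φ ψ →
    ∀ E : Set M, Good m n K θ E → ∀ B : Set (M × M), MeasurableSet B → B ⊆ E ×ˢ univ →
    ∀ η : ℝ, 0 < η → ∀ ε : ℝ, 0 < ε → ∀ᶠ j in atTop,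
    ∫ z in B, ((tht m n K θ η (tau j) z.1)⁻¹ * ∫ x in Metric.ball z.1 η, KH n K θ (tau j) z.1 x
        * (cc δ x z.2 - φ x - ψ z.2) ∂m) ∂γ
      ≤ tau j / 2 * aS n K δ γ φ ρ' + ε * tau j

/-- **S25**: the two one-sided entropy inequalities added, on a set `B` inside `{d²/2 < δ}`. -/
def Blk_S25 : Prop :=
  ∀ {M : Type u} [MetricSpace M] [ProperSpace M] [MeasurableSpace M] [BorelSpace M]
    (m : Measure M) (n : ℕ) (K θ δ : ℝ), InS m n K θ δ →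
    ∀ (ρ ρ' σ σ' : M →ₘ[m] ℝ), CD m ρ ρ' → CD m σ σ' →
    ∀ (γ : Measure (M × M)) (φ ψ : M → ℝ), Opt δ (dm ρ) (dm σ) γ φ ψ →
    ∀ E E' : Set M, Good m n K θ E → Good m n K θ E' →
    ∀ B : Set (M × M), MeasurableSet B → B ⊆ E ×ˢ E' → γ B ≠ 0 →
    ∀ ε₀ : ℝ, 0 < ε₀ → (∀ z ∈ B, dist z.1 z.2 ^ 2 / 2 ≤ δ - ε₀) →
    ∀ lam lam' : ℝ, 0 < lam → 0 < lam' →
    0 ≤ -((n : ℝ) / 2) * Real.log (lam * lam') - n
      + (lam * aS n K δ γ φ ρ' + lam' * aS n K δ γ ψ σ') / (2 * (γ B).toReal)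
      - K / (3 * (γ B).toReal) * ∫ z in B, cc δ z.1 z.2 ∂γ

/-- **S5**: `B → A = {d²/2 < δ}`; optimization. `α = γ(A)`. -/
def Blk_S5 : Prop :=
  ∀ {M : Type u} [MetricSpace M] [ProperSpace M] [MeasurableSpace M] [BorelSpace M]
    (m : Measure M) (n : ℕ) (K θ δ : ℝ), InS m n K θ δ →
    ∀ (ρ ρ' σ σ' : M →ₘ[m] ℝ), CD m ρ ρ' → CD m σ σ' →
    ∀ (γ : Measure (M × M)) (φ ψ : M → ℝ), Opt δ (dm ρ) (dm σ) γ φ ψ →
    0 ≤ aS n K δ γ φ ρ' ∧ 0 ≤ aS n K δ γ ψ σ' ∧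
    (0 < (γ (cutA M δ)).toReal →
      (n : ℝ) ^ 2 * (γ (cutA M δ)).toReal ^ 2 * Real.exp (2 * K / (3 * n * (γ (cutA M δ)).toReal)
        * ∫ z in cutA M δ, cc δ z.1 z.2 ∂γ) ≤ aS n K δ γ φ ρ' * aS n K δ γ ψ σ')

/-- **S6**: rate, Gronwall. -/
def Blk_S6 : Prop :=
  ∀ {M : Type u} [MetricSpace M] [ProperSpace M] [MeasurableSpace M] [BorelSpace M]
    (m : Measure M) (n : ℕ) (K θ δ : ℝ), InS m n K θ δ → OutCd m n K δ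

theorem blk_ST_of (hIn : Blk_InS.{u}) (h6 : Blk_S6.{u}) : Blk_ST.{u} := by
  intro M _ _ _ _ _ m n K θ hN
  haveI : ProperSpace M := hN.proper
  intro δ hδ
  exact h6 m n K θ δ (hIn m n K θ δ hN hδ)

end Vale.Agent.P233.RA
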