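import Vale.Agent.P233.RA.IfG

/-! P233, RCDA, block L2 (Laplacian comparison) in three pieces: frozen interface (helper671). -/

set_option linter.all false

open MeasureTheory Filter Topology Set Metric
open scoped ENNReal NNReal MeasureTheory

universe u

namespace Vale.Agent.P233.RG

open Vale.Agent.P233.RA

/-- (*) in Euler form (helper715): `ρ(r) = r - s sn r`; `G` is any set that meets, for every
`x ∈ B`, the set of the points of a segment `[p,x]` at distance `ρ(|px|)` from `p`. -/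
def StarE (M : Type u) [MetricSpace M] [MeasurableSpace M] [BorelSpace M] (κ : ℝ) (n : ℕ) : Prop :=
  ∀ R > 0, ∃ s₀ > 0, ∃ C ≥ 0, ∀ (p : M) (s : ℝ), 0 < s → s ≤ s₀ →
    ∀ B G : Set M, MeasurableSet B → B ⊆ ball p R → (∀ x ∈ B, √κ * dist p x < Real.pi) →
      (∀ x ∈ B, ∃ z ∈ G, dist p z = dist p x - s * sn κ (dist p x) ∧
        dist z x = s * sn κ (dist p x)) →
      ∫⁻ x in B, ENNReal.ofReal (1 - s * cs κ (dist p x) - C * s ^ 2) ^ n ∂μH[n] ≤ μH[n] G

/-- the comparison for Lipschitz functions, away from the antipode (helper790) -/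
def EC {M : Type u} [MetricSpace M] [MeasurableSpace M] (m : Measure M) (n : ℕ) (κ : ℝ) : Prop :=
  ∀ (p : M) (R : ℝ) (ψ : M → ℝ) (L : ℝ≥0), LipschitzWith L ψ → (∀ x, 0 ≤ ψ x) →
    (∀ x, R ≤ dist p x → ψ x = 0) →
    (∃ η > 0, ∀ x, Real.pi - η ≤ √κ * dist p x → ψ x = 0) →
    -∫ x, sn κ (dist p x) * (sob m).Γ (cl m ψ) (PD.dp m p R) x ∂m
      ≤ ∫ x, n * cs κ (dist p x) * ψ x ∂m

/-- (a) helper715 -/
def Blk_StarE : Prop :=
  ∀ (M : Type u) [MetricSpace M] [CompleteSpace M] [SecondCountableTopology M]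
    [MeasurableSpace M] [BorelSpace M] (n : ℕ) (κ : ℝ), Alex M n κ → Rad M κ → RadLip M κ →
    Alex0 M κ → Myers M κ → GeoN (μH[n] : Measure M) n → StarE M κ n

/-- (b) helper227 -/
def Blk_EC : Prop :=
  ∀ (M : Type u) [MetricSpace M] [CompleteSpace M] [SecondCountableTopology M]
    [MeasurableSpace M] [BorelSpace M] (n : ℕ) (κ : ℝ), Alex M n κ → Myers M κ →
    GeoN (μH[n] : Measure M) n → Quadr (μH[n] : Measure M) → LOut (μH[n] : Measure M) n →
    StarE M κ n → EC (μH[n] : Measure M) n κ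

/-- (c) helper790 -/
def Blk_LCE : Prop :=
  ∀ (M : Type u) [MetricSpace M] [CompleteSpace M] [SecondCountableTopology M]
    [MeasurableSpace M] [BorelSpace M] (n : ℕ) (κ : ℝ), Alex M n κ → Myers M κ →
    GeoN (μH[n] : Measure M) n → Quadr (μH[n] : Measure M) → LOut (μH[n] : Measure M) n →
    EC (μH[n] : Measure M) n κ → LC (μH[n] : Measure M) n ((n - 1) * κ)

theorem blk_L2_of (ha : Blk_StarE.{u}) (hb : Blk_EC.{u}) (hc : Blk_LCE.{u}) : Blk_L2.{u} :=
  fun M _ _ _ _ _ n κ hA hR hRL hA0 hM hG hQ hL =>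
    hc M n κ hA hM hG hQ hL (hb M n κ hA hM hG hQ hL (ha M n κ hA hR hRL hA0 hM hG))

end Vale.Agent.P233.RG
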