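import Vale.Agent.P233.Gig.Main
import Vale.Agent.P233.H103.Semi4
import Mathlib.MeasureTheory.Measure.Hausdorff
import Mathlib.Topology.MetricSpace.HausdorffDimension
import Mathlib.Analysis.SpecialFunctions.Gamma.Basic

/-! P233, RCDA (unconditional (A) implies RCD): common definitions, frozen (helper883). -/

set_option linter.all false

open MeasureTheory Filter Topology Set
open scoped ENNReal NNReal MeasureTheory

universe u

namespace Vale.Agent.P233.RA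

section metric

variable {M : Type u} [MetricSpace M]

/-- `g_y(x) = d(x,y)²/2` -/
noncomputable def gg (y x : M) : ℝ := dist x y ^ 2 / 2

/-- the bounded cost `c(x,y) = min (d(x,y)²/2, δ)` -/
noncomputable def cc (δ : ℝ) (x y : M) : ℝ := min (dist x y ^ 2 / 2) δ

/-- `w_y = c(·,y) - δ`: Lipschitz with bounded support, `-δ ≤ w_y ≤ 0` -/
noncomputable def ww (δ : ℝ) (y x : M) : ℝ := cc δ x y - δ

/-- bounded support of a function -/
def BSup (f : M → ℝ) : Prop := ∃ (x₀ : M) (R : ℝ), ∀ x, R ≤ dist x x₀ → f x = 0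

end metric

section

variable {M : Type u} [MetricSpace M] [MeasurableSpace M]

/-- Hypotheses of Theorem N: a proper (`M` complete, balls of finite measure, doubling) geodesic
space with quadratic Cheeger energy, Laplacian comparison with the constants `n`, `K`, and density
`θ` almost everywhere. -/
structure NSp (m : Measure M) (n : ℕ) (K θ : ℝ) : Prop where
  n_pos : 0 < n
  proper : ProperSpace M
  geo : Gig.Geo M
  full : m.IsOpenPosMeasure
  fin : ∀ (x : M) (r : ℝ), m (Metric.ball x r) < ∞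
  /-- exponential growth -/
  growth : ∃ (x₀ : M) (c : ℝ), ∀ r > 0, m (Metric.ball x₀ r) ≤ ENNReal.ofReal (c * Real.exp (c * r))
  upper : ∀ (x₀ : M) (R : ℝ), ∃ c : ℝ, ∀ x ∈ Metric.ball x₀ R, ∀ r, 0 < r → r ≤ 1 →
    m (Metric.ball x r) ≤ ENNReal.ofReal (c * r ^ n)
  doubling : ∀ (x₀ : M) (R : ℝ), ∃ c : ℝ≥0, ∀ x ∈ Metric.ball x₀ R, ∀ r, 0 < r → r ≤ 1 →
    m (Metric.ball x (2 * r)) ≤ c * m (Metric.ball x r)
  θ_pos : 0 < θ
  dens : ∀ᵐ x ∂m, Tendsto (fun r : ℝ => (m (Metric.ball x r)).toReal / r ^ n) (𝓝[>] 0) (𝓝 θ)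
  quadratic : ∀ f ∈ (sob m).W, ∀ g ∈ (sob m).W,
    ∫ x, (slope (f + g) ^ 2) x ∂m + ∫ x, (slope (f - g) ^ 2) x ∂m
      = 2 * ∫ x, (slope f ^ 2) x ∂m + 2 * ∫ x, (slope g ^ 2) x ∂m
  s2l : ∀ f ∈ (sob m).W, slope f ≤ 1 → ∃ u : M → ℝ, LipschitzWith 1 u ∧ f =ᵐ[m] u
  /-- the minimal slope of a Lipschitz function is its local Lipschitz constant -/
  slope_eq : ∀ (u : M → ℝ) (L : ℝ≥0), LipschitzWith L u → BSup u →
    ∀ᵐ x ∂m, slope (cl m u) x = (lipAt u x).toReal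
  /-- Laplacian comparison: `Δ g_p ≤ n - (2K/3) g_p` -/
  lc : ∀ (p : M) (δ : ℝ), 0 < δ → ∀ φ ∈ (sob m).W, 0 ≤ φ → (∀ᵐ x ∂m, δ ≤ gg p x → φ x = 0) →
    -I ((sob m).Γ (cl m (ww δ p)) φ) ≤ ∫ x, (n - 2 * K / 3 * gg p x) * φ x ∂m

variable {m : Measure M} {n : ℕ} {K θ : ℝ}

theorem NSp.isDir [BorelSpace M] [SecondCountableTopology M] (h : NSp m n K θ) : IsDir (sob m) :=
  isDir_sob h.fin h.quadratic

theorem NSp.isGamma [BorelSpace M] [SecondCountableTopology M] (h : NSp m n K θ) :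
    IsGamma (sob m) :=
  isGamma_sob h.fin h.quadratic h.s2l

/-- The heat semigroup with generator `½ Δ` (all times `≥ 0`). The lemmas on `Calc.P` in
`H103/Semi2 - Semi4` that only need `IsDir` apply, with `t/2` for `t`. -/
noncomputable def Q (m : Measure M) (t : ℝ) (f : M →ₘ[m] ℝ) : M →ₘ[m] ℝ := (sob m).P (t / 2) f

/-- the constant with `∫ exp (-g_x/τ) dm ~ ga n θ * τ^(n/2)` -/
noncomputable def ga (n : ℕ) (θ : ℝ) : ℝ :=
  θ * (2 : ℝ) ^ ((n : ℝ) / 2) * Real.Gamma ((n : ℝ) / 2 + 1)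

/-- `a(s) = 1/s - K/6 + b's`, `b' = K²/108` -/
noncomputable def aK (K s : ℝ) : ℝ := 1 / s - K / 6 + K ^ 2 / 108 * s

/-- `b = n |K| / 12 + n K² / 216` -/
noncomputable def bK (n : ℕ) (K : ℝ) : ℝ := n * |K| / 12 + n * K ^ 2 / 216

/-- the Cheeger-Yau kernel `K̂_s(x,y)`, for `0 < s ≤ 1` -/
noncomputable def KH (n : ℕ) (K θ s : ℝ) (x y : M) : ℝ :=
  (ga n θ)⁻¹ * s ^ (-((n : ℝ) / 2)) * Real.exp (-(aK K s * gg y x) - bK n K * s)

end

/-! ### the two halves and the final theorem -/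

/-- The metric half (parts G and L). -/
def PartGL : Prop := ∀ (M : Type u) [MetricSpace M] [CompleteSpace M] [SecondCountableTopology M]
  [MeasurableSpace M] [BorelSpace M] (n : ℕ) (κ : ℝ), 2 ≤ n → T.IsAlexandrov M κ →
    dimH (univ : Set M) = n → ∃ θ : ℝ, NSp (μH[n] : Measure M) n ((n - 1) * κ) θ

/-- Theorem N (parts H, T, S, K). -/
def PartN : Prop := ∀ (M : Type u) [MetricSpace M] [CompleteSpace M] [SecondCountableTopology M]
  [MeasurableSpace M] [BorelSpace M] (m : Measure M) (n : ℕ) (K θ : ℝ), NSp m n K θ →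
    (sob m).BE K n

end Vale.Agent.P233.RA
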