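import Vale.Agent.P233.RA.Defs

/-! P233, RCDA: interface of the parts H (heat flow) and K (Kuwada duality, Bochner inequality),
frozen (helper883). Every block is a proposition `Blk_*`; a block may use the earlier ones. -/

set_option linter.all false

open MeasureTheory Filter Topology Set
open scoped ENNReal NNReal MeasureTheory

universe u

namespace Vale.Agent.P233.RA

section

variable {M : Type u} [MetricSpace M] [MeasurableSpace M]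

/-- admissible truncation heights: all `δ > 0` if `K ≤ 0`, `δ > sup g` if `K > 0` -/
def Okd (M : Type u) [MetricSpace M] (K δ : ℝ) : Prop :=
  0 < δ ∧ (K ≤ 0 ∨ ∀ x y : M, gg y x < δ)

/-- probability densities of the class `𝒞`: `ρ` and `ρ' = Δρ` are in `L¹ ∩ L^∞` -/
structure CD (m : Measure M) (ρ ρ' : M →ₘ[m] ℝ) : Prop where
  lap : (sob m).IsLap ρ ρ'
  nonneg : 0 ≤ ρ
  mass : I ρ = 1
  m1 : MemLp ρ 1 m
  mt : MemLp ρ ∞ m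
  m1' : MemLp ρ' 1 m
  mt' : MemLp ρ' ∞ m

/-- bounded Lipschitz functions -/
def BLip (φ : M → ℝ) : Prop := (∃ L : ℝ≥0, LipschitzWith L φ) ∧ ∃ B : ℝ, ∀ x, |φ x| ≤ B

/-- the exponential rate of the contraction -/
noncomputable def Cst (n : ℕ) (K δ p q : ℝ) : ℝ :=
  (if K ≤ 0 then n * √(p * q) / δ else 0) - K / 3 * (√(p * q) + p + q)

end

/-- Binder: `(M, m)` satisfies the hypotheses of Theorem N. -/
def ForN (P : ∀ (M : Type u) [MetricSpace M] [MeasurableSpace M] (m : Measure M) (n : ℕ) (K θ : ℝ),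
    Prop) : Prop :=
  ∀ (M : Type u) [MetricSpace M] [CompleteSpace M] [SecondCountableTopology M]
    [MeasurableSpace M] [BorelSpace M] (m : Measure M) (n : ℕ) (K θ : ℝ), NSp m n K θ → P M m n K θ

/-! ### H: heat flow -/

/-- H0: for `K > 0` the space is bounded (test (LC) with `η(g_p)`). -/
def Blk_H0 : Prop := ForN.{u} fun M _ _ m n K θ => 0 < K → ∃ R : ℝ, ∀ x y : M, dist x y ≤ R

/-- H1: conservation of mass (test (LC) with `w_p`, `δ → ∞`). -/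
def Blk_H1 : Prop := ForN.{u} fun M _ _ m n K θ => ∀ t : ℝ, 0 ≤ t → ∀ f : M →ₘ[m] ℝ, MemLp f 2 m →
  MemLp f 1 m → I (Q m t f) = I f

/-- H2a: the heat flow is strongly continuous in `L¹` (on `L¹ ∩ L²`), and resolvents too. -/
def Blk_H2a : Prop := ForN.{u} fun M _ _ m n K θ => ∀ f : M →ₘ[m] ℝ, MemLp f 2 m → MemLp f 1 m →
  Tendsto (fun t => ∫ x, |(Q m t f - f) x| ∂m) (𝓝[>] 0) (𝓝 0) ∧
  Tendsto (fun l => ∫ x, |((sob m).J l f - f) x| ∂m) (𝓝[>] 0) (𝓝 0)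

/-- H2b: the class `𝒞` is stable under the flow and contains the resolvents of bounded
densities. -/
def Blk_H2b : Prop := ForN.{u} fun M _ _ m n K θ =>
  (∀ ρ ρ' : M →ₘ[m] ℝ, CD m ρ ρ' → ∀ t : ℝ, 0 ≤ t → CD m (Q m t ρ) (Q m t ρ')) ∧
  (∀ h : M →ₘ[m] ℝ, 0 ≤ h → I h = 1 → MemLp h 1 m → MemLp h ∞ m → ∀ l : ℝ, 0 < l →
    CD m ((sob m).J l h) (l⁻¹ • ((sob m).J l h - h)))

/-- H2c: differentiability in `L¹` on the class `𝒞`. -/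
def Blk_H2c : Prop := ForN.{u} fun M _ _ m n K θ => ∀ ρ ρ' : M →ₘ[m] ℝ, CD m ρ ρ' →
  Tendsto (fun t => ∫ x, |(t⁻¹ • (Q m t ρ - ρ) - (2 : ℝ)⁻¹ • ρ') x| ∂m) (𝓝[>] 0) (𝓝 0) ∧
  ∀ s t : ℝ, 0 ≤ s → 0 ≤ t → ∫ x, |(Q m t ρ - Q m s ρ) x| ∂m ≤ |t - s| / 2 * ∫ x, |ρ' x| ∂m

/-- H3a: (LC) for all nonnegative Sobolev functions. -/
def Blk_H3a : Prop := ForN.{u} fun M _ _ m n K θ => ∀ (p : M) (δ : ℝ), 0 < δ → ∀ φ ∈ (sob m).W,
  0 ≤ φ → -I ((sob m).Γ (cl m (ww δ p)) φ) ≤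
    ∫ x in {x | gg p x < δ}, (n - 2 * K / 3 * gg p x) * φ x ∂m

/-- H3b: the heat flow of `c(·,y)`: uniform first order upper bound. -/
def Blk_H3b : Prop := ForN.{u} fun M _ _ m n K θ => ∀ δ : ℝ, Okd M K δ → ∃ C : ℝ, 0 ≤ C ∧
  ∀ t : ℝ, 0 ≤ t → t ≤ 1 → ∀ y : M, ∀ᵐ x ∂m,
    Q m t (cl m (ww δ y)) x ≤ ww δ y x + t / 2 * (n - 2 * K / 3 * cc δ x y) + C * (t * √t)

/-- H3c: bounded Lipschitz functions (with bounded support): `|Q_t f - f| ≤ C √t`. -/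
def Blk_H3c : Prop := ForN.{u} fun M _ _ m n K θ => ∀ (L : ℝ≥0) (B : ℝ), ∃ C : ℝ, 0 ≤ C ∧
  ∀ f : M → ℝ, LipschitzWith L f → (∀ x, |f x| ≤ B) → BSup f → ∀ t : ℝ, 0 ≤ t → t ≤ 1 →
    ∀ᵐ x ∂m, |Q m t (cl m f) x - f x| ≤ C * √t

/-- H4: Cheeger-Yau: `K̂_s ≤ p_s` in the weak sense. -/
def Blk_H4 : Prop := ForN.{u} fun M _ _ m n K θ => ∀ s : ℝ, 0 < s → s ≤ 1 → ∀ f h : M →ₘ[m] ℝ,
  0 ≤ f → 0 ≤ h → MemLp f 2 m → MemLp h 2 m →
    ∫⁻ x, ∫⁻ y, ENNReal.ofReal (f x * KH n K θ s x y * h y) ∂m ∂m ≤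
      ENNReal.ofReal (I (f * Q m s h))

/-- H5: the Davies inequality for a pair of potentials. -/
def Blk_H5 : Prop := ForN.{u} fun M _ _ m n K θ => ∀ φ ψ : M → ℝ, BLip φ → BLip ψ →
  (∀ x y, φ x + ψ y ≤ dist x y ^ 2 / 2) → ∀ T : ℝ, 0 < T → ∀ f h : M →ₘ[m] ℝ,
  MemLp f 2 m → MemLp h 2 m →
    I ((cl m (fun x => Real.exp (φ x / T)) * f) * Q m T (cl m (fun x => Real.exp (ψ x / T)) * h))
      ≤ √(I (f ^ 2)) * √(I (h ^ 2))

/-- S1: the kernel inequality with potentials (from H4 and H5). -/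
def Blk_S1 : Prop := ForN.{u} fun M _ _ m n K θ => ∀ φ ψ : M → ℝ, BLip φ → BLip ψ →
  (∀ x y, φ x + ψ y ≤ dist x y ^ 2 / 2) → ∀ T : ℝ, 0 < T → T ≤ 1 → ∀ f h : M →ₘ[m] ℝ,
  0 ≤ f → 0 ≤ h → MemLp f 2 m → MemLp h 2 m → I (f ^ 2) ≤ 1 → I (h ^ 2) ≤ 1 →
    ∫⁻ x, ∫⁻ y, ENNReal.ofReal
      (Real.exp (φ x / T) * f x * KH n K θ T x y * (Real.exp (ψ y / T) * h y)) ∂m ∂m ≤ 1

/-! ### output of the parts S, T: the contraction, in dual form -/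

/-- The contraction of `D_c` along the heat flow with two speeds `p`, `q`: the left side is a lower
bound of `D_c(Q_(pt) ρ, Q_(qt) σ)` (admissible pair), the double integral on the right is an upper
bound of `D_c(ρ, σ)` (product plan). -/
def OutC {M : Type u} [MetricSpace M] [MeasurableSpace M] (m : Measure M) (n : ℕ) (K : ℝ) : Prop :=
  ∀ δ : ℝ, Okd M K δ → ∀ ρ ρ' σ σ' : M →ₘ[m] ℝ, CD m ρ ρ' → CD m σ σ' → ∀ φ ψ : M → ℝ,
    BLip φ → BLip ψ → (∀ x y, φ x + ψ y ≤ cc δ x y) → ∀ p q t : ℝ, 0 ≤ p → 0 ≤ q → 0 ≤ t →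
    ∫ x, φ x * Q m (p * t) ρ x ∂m + ∫ y, ψ y * Q m (q * t) σ y ∂m ≤
      Real.exp (Cst n K δ p q * t) * ∫ x, ∫ y, cc δ x y * (ρ x * σ y) ∂m ∂m
        + n / 2 * (√p - √q) ^ 2 * t * Real.exp (max (Cst n K δ p q) 0 * t)

/-- parts S and T -/
def Blk_ST : Prop := ForN.{u} fun M _ _ m n K θ => OutC m n K

/-! ### K: see `Vale/Agent/P233/H994/RKDef.lean` (`K1S`, `KA2`, `KA3`, `Blk_K1S`, `Blk_KA2`,
`Blk_KD2`, `Blk_KA3`, `Blk_KD3`, `partN_of'`). -/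

/-! ### Z: transfer to the statement file -/

/-- Z1: the conditions of `NSp` and `BE(K,n)` give `T.IsRCD`. -/
def Blk_Z1 : Prop := ForN.{u} fun M _ _ m n K θ => (sob m).BE K n → T.IsRCD m K n

theorem rcd_of (h1 : PartGL.{u}) (h2 : PartN.{u}) (h3 : Blk_Z1.{u}) (M : Type u) [MetricSpace M]
    [CompleteSpace M] [SecondCountableTopology M] [MeasurableSpace M] [BorelSpace M] (n : ℕ)
    (κ : ℝ) (hn : 2 ≤ n) (hA : T.IsAlexandrov M κ) (hd : dimH (univ : Set M) = n) :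
    (μH[n] : Measure M).IsOpenPosMeasure ∧ T.IsRCD (μH[n] : Measure M) ((n - 1) * κ) n := by
  obtain ⟨θ, h⟩ := h1 M n κ hn hA hd
  exact ⟨h.full, h3 M _ n _ θ h (h2 M _ n _ θ h)⟩

end Vale.Agent.P233.RA
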